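import Vale.Agent.P230.Density

namespace Vale.Agent.Results.P230.LowerBound

open MeasureTheory Filter
open scoped Pointwise ENNReal

/-- A convex body: compact, convex, with nonempty interior. -/
def IsConvexBody {n : ℕ} (K : Set (EuclideanSpace ℝ (Fin n))) : Prop :=
  IsCompact K ∧ Convex ℝ K ∧ (interior K).Nonempty

/-- Every bounded set contains finitely many points of `X`. -/
def IsLocFinite {n : ℕ} (X : Set (EuclideanSpace ℝ (Fin n))) : Prop :=
  ∀ B : Set (EuclideanSpace ℝ (Fin n)), Bornology.IsBounded B → (X ∩ B).Finite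

/-- The cube `[-R, R]^n`. -/
def cube (n : ℕ) (R : ℝ) : Set (EuclideanSpace ℝ (Fin n)) := {x | ∀ i, |x i| ≤ R}

/-- The upper density of `X`: the limsup, as `R → ∞`, of the number of points of `X` in the cube
divided by `(2R)^n`. -/
noncomputable def upperDensity {n : ℕ} (X : Set (EuclideanSpace ℝ (Fin n))) : ℝ≥0∞ :=
  limsup (fun R : ℝ => ((X ∩ cube n R).encard : ℝ≥0∞) / ENNReal.ofReal ((2 * R) ^ n)) atTop

/-- Translative covering density. -/
noncomputable def thetaT {n : ℕ} (K : Set (EuclideanSpace ℝ (Fin n))) : ℝ≥0∞ :=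
  ⨅ (X : Set (EuclideanSpace ℝ (Fin n))) (_ : IsLocFinite X) (_ : K + X = Set.univ),
    volume K * upperDensity X

/-- Lattice covering density. -/
noncomputable def thetaL {n : ℕ} (K : Set (EuclideanSpace ℝ (Fin n))) : ℝ≥0∞ :=
  ⨅ (L : Submodule ℤ (EuclideanSpace ℝ (Fin n))) (_ : DiscreteTopology L) (_ : IsZLattice ℝ L)
    (_ : K + (L : Set (EuclideanSpace ℝ (Fin n))) = Set.univ),
    volume K / ENNReal.ofReal (ZLattice.covolume L volume)

/-- Worst-case translative covering density in dimension `n`. -/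
noncomputable def ThetaT (n : ℕ) : ℝ≥0∞ :=
  ⨆ (K : Set (EuclideanSpace ℝ (Fin n))) (_ : IsConvexBody K), thetaT K

/-- Worst-case lattice covering density in dimension `n`. -/
noncomputable def ThetaL (n : ℕ) : ℝ≥0∞ :=
  ⨆ (K : Set (EuclideanSpace ℝ (Fin n))) (_ : IsConvexBody K), thetaL K

theorem lower : ∃ c : ℝ, 0 < c ∧ ∃ n₀ : ℕ, ∀ n ≥ n₀,
    ENNReal.ofReal (c * n * Real.log n) ≤ ThetaT n ∧
      ENNReal.ofReal (c * n * Real.log n) ≤ ThetaL n := by
  have h := (Real.tendsto_log_atTop.comp tendsto_natCast_atTop_atTop).eventually_ge_atTop (2 ^ 50)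
  obtain ⟨n₀, hn₀⟩ := eventually_atTop.1 h
  refine ⟨Vale.Agent.P230.c0, Vale.Agent.P230.c0_pos, n₀, fun n hn => ?_⟩
  obtain ⟨K, h1, h2, h3, h4, h5⟩ := Vale.Agent.P230.lower_density n (hn₀ n hn)
  rw [mul_assoc]
  constructor
  · refine le_trans ?_ (le_iSup₂ (f := fun K (_ : IsConvexBody K) => thetaT K) K ⟨h1, h2, h3⟩)
    exact le_iInf fun X => le_iInf fun hX => le_iInf fun hc => h4 X hX hc
  · refine le_trans ?_ (le_iSup₂ (f := fun K (_ : IsConvexBody K) => thetaL K) K ⟨h1, h2, h3⟩)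
    exact le_iInf fun L => le_iInf fun _ => le_iInf fun _ => le_iInf fun hc => h5 L hc

theorem result :
    (∃ c : ℝ, 0 < c ∧ ∃ n₀ : ℕ, ∀ n ≥ n₀,
      ENNReal.ofReal (c * n * Real.log n) ≤ ThetaT n ∧
        ENNReal.ofReal (c * n * Real.log n) ≤ ThetaL n) ∧
    ¬ ∃ C : ℝ, ∀ n : ℕ, 1 ≤ n → ∀ K : Set (EuclideanSpace ℝ (Fin n)), IsConvexBody K →
      thetaT K ≤ ENNReal.ofReal (C * n) := by
  refine ⟨lower, ?_⟩
  rintro ⟨C, hC⟩
  obtain ⟨c, hc, n₀, h⟩ := lower
  have h1 := (Real.tendsto_log_atTop.comp tendsto_natCast_atTop_atTop).eventually_gt_atTop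
    (|C| / c)
  obtain ⟨n, hn1, hn2, hn3⟩ :=
    (h1.and ((eventually_ge_atTop n₀).and (eventually_ge_atTop 1))).exists
  have h2 : ThetaT n ≤ ENNReal.ofReal (|C| * n) := by
    refine iSup₂_le fun K hK => (hC n hn3 K hK).trans (ENNReal.ofReal_le_ofReal ?_)
    exact mul_le_mul_of_nonneg_right (le_abs_self C) (Nat.cast_nonneg n)
  have h3 := (ENNReal.ofReal_le_ofReal_iff (by positivity)).1 ((h n hn2).1.trans h2)
  have hn : (0 : ℝ) < n := by exact_mod_cast hn3
  have h4 : |C| < Real.log n * c := (div_lt_iff₀ hc).1 hn1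
  nlinarith

end Vale.Agent.Results.P230.LowerBound
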